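import Vale.Agent.P267.H714.Picard
import Mathlib.Analysis.Calculus.ContDiff.RCLike
import Mathlib.Analysis.Calculus.FDeriv.Bilinear
import Mathlib.Analysis.Calculus.FDeriv.Prod

/-!
# Local flow of a holomorphic vector field, in complex time, holomorphic in the initial point
-/

open Set Filter Metric
open scoped Topology NNReal

noncomputable section

namespace Vale.Agent.P267.H714

variable {V : Type*} [NormedAddCommGroup V] [NormedSpace ℂ V]

/-- local uniqueness of solutions -/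
theorem ode_local_unique {θ : V → V} {x₀ : V} {K : ℝ≥0} {t : Set V} (ht : t ∈ 𝓝 x₀)
    (hθ : LipschitzOnWith K θ t) {E₁ E₂ : ℂ → V} {z₀ : ℂ}
    (h₁ : ∀ᶠ z in 𝓝 z₀, HasDerivAt E₁ (θ (E₁ z)) z) (h₂ : ∀ᶠ z in 𝓝 z₀, HasDerivAt E₂ (θ (E₂ z)) z)
    (e₁ : E₁ z₀ = x₀) (e₂ : E₂ z₀ = x₀) : E₁ =ᶠ[𝓝 z₀] E₂ := by
  have c₁ : ContinuousAt E₁ z₀ := h₁.self_of_nhds.continuousAt
  have c₂ : ContinuousAt E₂ z₀ := h₂.self_of_nhds.continuousAt
  have t₁ : ∀ᶠ z in 𝓝 z₀, E₁ z ∈ t := c₁.eventually (by rw [e₁]; exact ht)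
  have t₂ : ∀ᶠ z in 𝓝 z₀, E₂ z ∈ t := c₂.eventually (by rw [e₂]; exact ht)
  have b : ∀ᶠ z in 𝓝 z₀, ‖E₁ z - E₂ z‖ < 1 := by
    have : Tendsto (fun z => ‖E₁ z - E₂ z‖) (𝓝 z₀) (𝓝 ‖E₁ z₀ - E₂ z₀‖) := (c₁.sub c₂).norm
    rw [e₁, e₂, sub_self, norm_zero] at this
    exact this.eventually (gt_mem_nhds one_pos)
  obtain ⟨ρ, hρ, hball⟩ := Metric.eventually_nhds_iff_ball.1 (h₁.and (h₂.and (t₁.and (t₂.and b))))
  set ρ' : ℝ := min ρ (1 / (2 * ((K : ℝ) + 1))) with hρ'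
  have hK : (0 : ℝ) ≤ K := K.coe_nonneg
  have hρ'0 : 0 < ρ' := lt_min hρ (by positivity)
  have hsub : ball z₀ ρ' ⊆ ball z₀ ρ := ball_subset_ball (min_le_left _ _)
  have key := gronwall (Q := ball z₀ ρ') (convex_ball _ _) (mem_ball_self hρ'0) (ρ := ρ')
    (fun z hz => by rw [mem_ball, dist_eq_norm] at hz; exact hz.le)
    (D := fun z => E₁ z - E₂ z) (D' := fun z => θ (E₁ z) - θ (E₂ z))
    (fun z hz => ((hball z (hsub hz)).1.sub (hball z (hsub hz)).2.1).hasDerivWithinAt)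
    (L := K) (δ := 0) (M := 1) hK le_rfl (by
      have h1 : ρ' ≤ 1 / (2 * ((K : ℝ) + 1)) := min_le_right _ _
      have h2 : (K : ℝ) * ρ' ≤ K * (1 / (2 * ((K : ℝ) + 1))) := mul_le_mul_of_nonneg_left h1 hK
      have h3 : (K : ℝ) * (1 / (2 * ((K : ℝ) + 1))) ≤ 1 / 2 := by
        rw [mul_one_div, div_le_div_iff₀ (by positivity) (by norm_num)]
        nlinarith
      linarith)
    (fun z hz => by
      rw [add_zero]
      exact hθ.norm_sub_le (hball z (hsub hz)).2.2.1 (hball z (hsub hz)).2.2.2.1)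
    (fun z hz => (hball z (hsub hz)).2.2.2.2.le)
  filter_upwards [ball_mem_nhds z₀ hρ'0] with z hz
  have := key z hz
  rw [e₁, e₂, sub_self, norm_zero, zero_mul, add_zero, mul_zero] at this
  exact sub_eq_zero.1 (norm_le_zero_iff.1 this)

variable [CompleteSpace V]

/-- **Local flow** of a holomorphic vector field, jointly holomorphic. -/
theorem exists_flow {θ : V → V} {q₀ : V} (hθ : ContDiffAt ℂ 2 θ q₀) {W : Set V} (hW : W ∈ 𝓝 q₀) :
    ∃ r > 0, ∃ ε > 0, ∃ φ : V → ℂ → V,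
      (∀ q ∈ ball q₀ r, φ q 0 = q ∧ ∀ z ∈ ball (0 : ℂ) ε,
        φ q z ∈ W ∧ HasDerivAt (φ q) (θ (φ q z)) z) ∧
      DifferentiableOn ℂ (fun p : V × ℂ => φ p.1 p.2) (ball q₀ r ×ˢ ball (0 : ℂ) ε) := by
  -- constants
  obtain ⟨K₁, t₁, ht₁, hK₁⟩ := (hθ.of_le (by norm_num)).exists_lipschitzOnWith (𝕂 := ℂ)
  have hfd : ContDiffAt ℂ 1 (fderiv ℂ θ) q₀ := hθ.fderiv_right (m := 1) (by norm_num)
  obtain ⟨K₂, t₂, ht₂, hK₂⟩ := hfd.exists_lipschitzOnWith (𝕂 := ℂ)
  have hd₁ : ∀ᶠ x in 𝓝 q₀, DifferentiableAt ℂ θ x :=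
    (hθ.eventually (by norm_num)).mono fun x hx => hx.differentiableAt (by norm_num)
  have hd₂ : ∀ᶠ x in 𝓝 q₀, DifferentiableAt ℂ (fderiv ℂ θ) x :=
    (hfd.eventually (by norm_num)).mono fun x hx => hx.differentiableAt (by norm_num)
  obtain ⟨R, hR, hball⟩ := Metric.eventually_nhds_iff_ball.1
    (hd₁.and (hd₂.and ((eventually_mem_set.2 ht₁).and ((eventually_mem_set.2 ht₂).and
      (eventually_mem_set.2 hW)))))
  set B : ℝ := ‖θ q₀‖ + K₁ * R with hB
  have hK₁0 : (0 : ℝ) ≤ K₁ := K₁.coe_nonneg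
  have hK₂0 : (0 : ℝ) ≤ K₂ := K₂.coe_nonneg
  have hB0 : 0 ≤ B := by positivity
  have hθB : ∀ x ∈ ball q₀ R, ‖θ x‖ ≤ B := by
    intro x hx
    have h1 := hK₁.norm_sub_le (hball x hx).2.2.1 (hball q₀ (mem_ball_self hR)).2.2.1
    have h2 : ‖x - q₀‖ ≤ R := by rw [mem_ball, dist_eq_norm] at hx; exact hx.le
    have h3 : ‖θ x‖ ≤ ‖θ x - θ q₀‖ + ‖θ q₀‖ := by simpa using norm_add_le (θ x - θ q₀) (θ q₀)
    have h4 : (K₁ : ℝ) * ‖x - q₀‖ ≤ K₁ * R := mul_le_mul_of_nonneg_left h2 hK₁0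
    linarith
  have hDθ : ∀ x ∈ ball q₀ R, ‖fderiv ℂ θ x‖ ≤ K₁ := by
    intro x hx
    refine norm_fderiv_le_of_lipschitzOn ℂ (s := ball q₀ R) (isOpen_ball.mem_nhds hx) ?_
    exact hK₁.mono fun y hy => (hball y hy).2.2.1
  have hrem : ∀ x ∈ ball q₀ R, ∀ y ∈ ball q₀ R,
      ‖θ y - θ x - fderiv ℂ θ x (y - x)‖ ≤ K₂ * ‖y - x‖ * ‖y - x‖ := by
    intro x hx y hy
    have hseg : segment ℝ x y ⊆ ball q₀ R := (convex_ball q₀ R).segment_subset hx hy
    refine Convex.norm_image_sub_le_of_norm_hasFDerivWithin_le' (s := segment ℝ x y)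
      (f' := fun z => fderiv ℂ θ z) (𝕜 := ℂ)
      (fun z hz => ((hball z (hseg hz)).1.hasFDerivAt).hasFDerivWithinAt) (fun z hz => ?_)
      (convex_segment x y) (left_mem_segment ℝ x y) (right_mem_segment ℝ x y)
    have h1 := hK₂.norm_sub_le (hball z (hseg hz)).2.2.2.1 (hball x hx).2.2.2.1
    have h2 : ‖z - x‖ ≤ ‖y - x‖ := by
      obtain ⟨s, ⟨hs0, hs1⟩, rfl⟩ := (segment_eq_image' ℝ x y ▸ hz : z ∈ _)
      simp only [add_sub_cancel_left, norm_smul, Real.norm_eq_abs, abs_of_nonneg hs0]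
      nlinarith [norm_nonneg (y - x)]
    exact h1.trans (mul_le_mul_of_nonneg_left h2 hK₂0)
  set ε : ℝ := min (1 / (2 * ((K₁ : ℝ) + 1))) (R / (4 * (B + 1))) with hε
  have hε0 : 0 < ε := lt_min (by positivity) (by positivity)
  have hLε : (K₁ : ℝ) * ε ≤ 1 / 2 := by
    have h1 : ε ≤ 1 / (2 * ((K₁ : ℝ) + 1)) := min_le_left _ _
    have h2 : (K₁ : ℝ) * ε ≤ K₁ * (1 / (2 * ((K₁ : ℝ) + 1))) := mul_le_mul_of_nonneg_left h1 hK₁0
    have h3 : (K₁ : ℝ) * (1 / (2 * ((K₁ : ℝ) + 1))) ≤ 1 / 2 := by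
      rw [mul_one_div, div_le_div_iff₀ (by positivity) (by norm_num)]
      nlinarith
    linarith
  have hMε : B * ε ≤ R / 4 := by
    have h1 : ε ≤ R / (4 * (B + 1)) := min_le_right _ _
    have h2 : B * ε ≤ B * (R / (4 * (B + 1))) := mul_le_mul_of_nonneg_left h1 hB0
    have h3 : B * (R / (4 * (B + 1))) ≤ R / 4 := by
      rw [mul_div_assoc', div_le_div_iff₀ (by positivity) (by norm_num)]
      nlinarith
    linarith
  have hcb : ∀ q ∈ ball q₀ (R / 2), closedBall q (R / 4) ⊆ ball q₀ R := by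
    intro q hq x hx
    rw [mem_ball] at *
    rw [mem_closedBall] at hx
    have := dist_triangle x q q₀
    linarith
  -- the solutions
  have hex : ∀ q, ∃ T : ℂ → V, q ∈ ball q₀ (R / 2) → (T 0 = q ∧
      MapsTo T (ball 0 ε) (closedBall q (R / 4)) ∧
        ∀ z ∈ ball (0 : ℂ) ε, HasDerivAt T (θ (T z)) z) := by
    intro q
    by_cases hq : q ∈ ball q₀ (R / 2)
    swap
    · exact ⟨fun _ => 0, fun h => absurd h hq⟩
    obtain ⟨T, hT⟩ := picard (Q := ball (0 : ℂ) ε) isOpen_ball (convex_ball _ _)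
      (mem_ball_self hε0) (ρ := ε)
      (fun z hz => by rw [mem_ball, dist_eq_norm] at hz; exact hz.le) (x₀ := q) (r := R / 4)
      (M := B) (L := K₁) hK₁0 hLε hB0 hMε (fun _ x => θ x)
      (fun T hT hTm z hz =>
        ((hball (T z) (hcb q hq (hTm hz))).1.comp_differentiableWithinAt z (hT z hz)))
      (fun z _ x hx => hθB x (hcb q hq hx))
      (fun z _ x hx y hy => hK₁.norm_sub_le (hball x (hcb q hq hx)).2.2.1
        (hball y (hcb q hq hy)).2.2.1)
    exact ⟨T, fun _ => hT⟩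
  choose φ hφ using hex
  refine ⟨R / 2, by positivity, ε, hε0, φ, fun q hq => ⟨(hφ q hq).1, fun z hz =>
    ⟨(hball _ (hcb q hq ((hφ q hq).2.1 hz))).2.2.2.2, (hφ q hq).2.2 z hz⟩⟩, ?_⟩
  -- joint differentiability
  rintro ⟨q, z₁⟩ ⟨hq, hz₁⟩
  simp only at hq hz₁
  have hφq := hφ q hq
  obtain ⟨J, hJ0, hJm, hJ⟩ := picard (V := V →L[ℂ] V) (Q := ball (0 : ℂ) ε) isOpen_ball
    (convex_ball _ _) (mem_ball_self hε0) (ρ := ε)
    (fun z hz => by rw [mem_ball, dist_eq_norm] at hz; exact hz.le)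
    (x₀ := ContinuousLinearMap.id ℂ V) (r := 1) (M := K₁ * 2) (L := K₁) hK₁0 hLε (by positivity)
    (by linarith) (fun z X => (fderiv ℂ θ (φ q z)).comp X)
    (fun T hT _ z hz => by
      have h1 : DifferentiableAt ℂ (fderiv ℂ θ) (φ q z) := (hball _ (hcb q hq (hφq.2.1 hz))).2.1
      have h2 : DifferentiableAt ℂ (φ q) z := (hφq.2.2 z hz).differentiableAt
      exact ((h1.comp z h2).differentiableWithinAt).clm_comp (hT z hz))
    (fun z hz X hX => by
      have h1 := (fderiv ℂ θ (φ q z)).opNorm_comp_le X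
      have h2 := hDθ _ (hcb q hq (hφq.2.1 hz))
      have h3 : ‖X‖ ≤ 2 := by
        rw [mem_closedBall, dist_eq_norm] at hX
        have h4 : ‖X‖ ≤ ‖X - ContinuousLinearMap.id ℂ V‖ + ‖ContinuousLinearMap.id ℂ V‖ := by
          simpa using norm_add_le (X - ContinuousLinearMap.id ℂ V) (ContinuousLinearMap.id ℂ V)
        have h5 := ContinuousLinearMap.norm_id_le (𝕜 := ℂ) (E := V)
        linarith
      exact h1.trans (mul_le_mul h2 h3 (norm_nonneg _) hK₁0))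
    (fun z hz X _ Y _ => by
      rw [← ContinuousLinearMap.comp_sub]
      exact ((fderiv ℂ θ (φ q z)).opNorm_comp_le _).trans
        (mul_le_mul_of_nonneg_right (hDθ _ (hcb q hq (hφq.2.1 hz))) (norm_nonneg _)))
  -- Lipschitz dependence
  have hΔ : ∀ q' ∈ ball q₀ (R / 2), ∀ z ∈ ball (0 : ℂ) ε, ‖φ q' z - φ q z‖ ≤ 2 * ‖q' - q‖ := by
    intro q' hq' z hz
    have hφ' := hφ q' hq'
    have key := gronwall (Q := ball (0 : ℂ) ε) (convex_ball _ _) (mem_ball_self hε0) (ρ := ε)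
      (fun z hz => by rw [mem_ball, dist_eq_norm] at hz; exact hz.le)
      (D := fun z => φ q' z - φ q z) (D' := fun z => θ (φ q' z) - θ (φ q z))
      (fun z hz => ((hφ'.2.2 z hz).sub (hφq.2.2 z hz)).hasDerivWithinAt)
      (L := K₁) (δ := 0) (M := 2 * R) hK₁0 le_rfl hLε
      (fun z hz => by
        rw [add_zero]
        exact hK₁.norm_sub_le (hball _ (hcb q' hq' (hφ'.2.1 hz))).2.2.1
          (hball _ (hcb q hq (hφq.2.1 hz))).2.2.1)
      (fun z hz => by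
        have h1 := hcb q' hq' (hφ'.2.1 hz)
        have h2 := hcb q hq (hφq.2.1 hz)
        rw [mem_ball] at h1 h2
        rw [← dist_eq_norm]
        have := dist_triangle_right (φ q' z) (φ q z) q₀
        linarith)
      z hz
    simpa [hφ'.1, hφq.1] using key
  have hrest : ∀ q' ∈ ball q₀ (R / 2), ∀ z ∈ ball (0 : ℂ) ε,
      ‖φ q' z - φ q z - J z (q' - q)‖ ≤ 8 * K₂ * ε * ‖q' - q‖ ^ 2 := by
    intro q' hq' z hz
    have hφ' := hφ q' hq'
    have key := gronwall (Q := ball (0 : ℂ) ε) (convex_ball _ _) (mem_ball_self hε0) (ρ := ε)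
      (fun z hz => by rw [mem_ball, dist_eq_norm] at hz; exact hz.le)
      (D := fun z => φ q' z - φ q z - J z (q' - q))
      (D' := fun z => θ (φ q' z) - θ (φ q z) - (fderiv ℂ θ (φ q z)).comp (J z) (q' - q))
      (fun z hz => (((hφ'.2.2 z hz).sub (hφq.2.2 z hz)).sub
        ((hJ z hz).clm_apply (hasDerivAt_const z (q' - q)) |>.congr_deriv (by simp))).hasDerivWithinAt)
      (L := K₁) (δ := 4 * K₂ * ‖q' - q‖ ^ 2) (M := 2 * ‖q' - q‖ + 2 * ‖q' - q‖) hK₁0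
      (by positivity) hLε
      (fun z hz => by
        have m' := hcb q' hq' (hφ'.2.1 hz)
        have m := hcb q hq (hφq.2.1 hz)
        have h1 := hrem _ m _ m'
        have h2 := hΔ q' hq' z hz
        have h3 : θ (φ q' z) - θ (φ q z) - (fderiv ℂ θ (φ q z)).comp (J z) (q' - q) =
            (θ (φ q' z) - θ (φ q z) - fderiv ℂ θ (φ q z) (φ q' z - φ q z)) +
            fderiv ℂ θ (φ q z) (φ q' z - φ q z - J z (q' - q)) := by
          simp only [ContinuousLinearMap.comp_apply, map_sub]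
          abel
        rw [h3]
        have h4 : ‖fderiv ℂ θ (φ q z) (φ q' z - φ q z - J z (q' - q))‖ ≤
            K₁ * ‖φ q' z - φ q z - J z (q' - q)‖ :=
          ((fderiv ℂ θ (φ q z)).le_opNorm _).trans
            (mul_le_mul_of_nonneg_right (hDθ _ m) (norm_nonneg _))
        have h5 : (K₂ : ℝ) * ‖φ q' z - φ q z‖ * ‖φ q' z - φ q z‖ ≤ 4 * K₂ * ‖q' - q‖ ^ 2 := by
          have h6 : ‖φ q' z - φ q z‖ * ‖φ q' z - φ q z‖ ≤ (2 * ‖q' - q‖) * (2 * ‖q' - q‖) :=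
            mul_le_mul h2 h2 (norm_nonneg _) (by positivity)
          nlinarith
        exact (norm_add_le _ _).trans (by linarith))
      (fun z hz => by
        have h2 := hΔ q' hq' z hz
        have h3 : ‖J z‖ ≤ 2 := by
          have hX := hJm hz
          rw [mem_closedBall, dist_eq_norm] at hX
          have h4 : ‖J z‖ ≤ ‖J z - ContinuousLinearMap.id ℂ V‖ + ‖ContinuousLinearMap.id ℂ V‖ := by
            simpa using norm_add_le (J z - ContinuousLinearMap.id ℂ V) (ContinuousLinearMap.id ℂ V)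
          have h5 := ContinuousLinearMap.norm_id_le (𝕜 := ℂ) (E := V)
          linarith
        have h4 : ‖J z (q' - q)‖ ≤ 2 * ‖q' - q‖ := ((J z).le_opNorm _).trans
          (mul_le_mul_of_nonneg_right h3 (norm_nonneg _))
        exact (norm_sub_le _ _).trans (by linarith))
      z hz
    refine key.trans (le_of_eq ?_)
    simp only [hφ'.1, hφq.1, hJ0, ContinuousLinearMap.id_apply, sub_self, norm_zero]
    ring
  -- the three terms
  have hnear : ∀ᶠ p : V × ℂ in 𝓝 (q, z₁), p.1 ∈ ball q₀ (R / 2) ∧ p.2 ∈ ball (0 : ℂ) ε :=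
    (prod_mem_nhds (isOpen_ball.mem_nhds hq) (isOpen_ball.mem_nhds hz₁))
  have f₁ : DifferentiableAt ℂ (fun p : V × ℂ => φ p.1 p.2 - φ q p.2 - J p.2 (p.1 - q)) (q, z₁) := by
    refine (Asymptotics.IsBigO.hasFDerivAt (n := 2) ?_ (by norm_num)).differentiableAt
    refine Asymptotics.IsBigO.of_bound (8 * K₂ * ε) ?_
    filter_upwards [hnear] with p hp
    refine (hrest p.1 hp.1 p.2 hp.2).trans ?_
    refine mul_le_mul_of_nonneg_left ?_ (by positivity)
    rw [norm_pow, norm_norm]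
    refine pow_le_pow_left₀ (norm_nonneg _) ?_ 2
    exact norm_fst_le (p - (q, z₁))
  have f₂ : DifferentiableAt ℂ (fun p : V × ℂ => J p.2 (p.1 - q)) (q, z₁) := by
    have h1 : DifferentiableAt ℂ (fun p : V × ℂ => J p.2) (q, z₁) :=
      (hJ z₁ hz₁).differentiableAt.comp (q, z₁) differentiableAt_snd
    exact h1.clm_apply (differentiableAt_fst.sub_const q)
  have f₃ : DifferentiableAt ℂ (fun p : V × ℂ => φ q p.2) (q, z₁) :=
    (hφq.2.2 z₁ hz₁).differentiableAt.comp (q, z₁) differentiableAt_snd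
  have := (f₁.add f₂).add f₃
  refine (this.congr_of_eventuallyEq ?_).differentiableWithinAt
  filter_upwards with p
  simp only [Pi.add_apply]
  abel

end Vale.Agent.P267.H714
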