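import Mathlib.Analysis.Complex.LocallyUniformLimit
import Mathlib.Analysis.Complex.CauchyIntegral
import Mathlib.MeasureTheory.Integral.CurveIntegral.Poincare
import Mathlib.Analysis.Calculus.MeanValue
import Mathlib.Analysis.SpecificLimits.Basic

/-!
# Holomorphic ordinary differential equations: Picard iteration on convex open subsets of `ℂ`
-/

open Set Filter Metric
open scoped Topology

noncomputable section

namespace Vale.Agent.P267.H714

variable {V : Type*} [NormedAddCommGroup V] [NormedSpace ℂ V]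

/-- Gronwall type estimate on a small convex set. -/
theorem gronwall {Q : Set ℂ} (hQ : Convex ℝ Q) {z₀ : ℂ} (hz₀ : z₀ ∈ Q) {ρ : ℝ}
    (hρ : ∀ z ∈ Q, ‖z - z₀‖ ≤ ρ) {D D' : ℂ → V} (hD : ∀ z ∈ Q, HasDerivWithinAt D (D' z) Q z)
    {L δ M : ℝ} (hL : 0 ≤ L) (hδ : 0 ≤ δ) (hLρ : L * ρ ≤ 1 / 2)
    (hD' : ∀ z ∈ Q, ‖D' z‖ ≤ L * ‖D z‖ + δ) (hM : ∀ z ∈ Q, ‖D z‖ ≤ M) :
    ∀ z ∈ Q, ‖D z‖ ≤ 2 * (‖D z₀‖ + δ * ρ) := by
  have hρ0 : 0 ≤ ρ := (norm_nonneg _).trans (hρ z₀ hz₀)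
  set A := ‖D z₀‖ + δ * ρ with hA
  have hA0 : 0 ≤ A := by positivity
  -- one step
  have step : ∀ M : ℝ, (∀ z ∈ Q, ‖D z‖ ≤ M) → ∀ z ∈ Q, ‖D z‖ ≤ M / 2 + A := by
    intro M hM z hz
    have hM0 : 0 ≤ M := (norm_nonneg _).trans (hM z hz)
    have h1 : ‖D z - D z₀‖ ≤ (L * M + δ) * ‖z - z₀‖ :=
      hQ.norm_image_sub_le_of_norm_hasDerivWithin_le hD
        (fun x hx => (hD' x hx).trans (by nlinarith [hM x hx])) hz₀ hz
    have h2 : (L * M + δ) * ‖z - z₀‖ ≤ (L * M + δ) * ρ :=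
      mul_le_mul_of_nonneg_left (hρ z hz) (by positivity)
    have h3 : ‖D z‖ ≤ ‖D z - D z₀‖ + ‖D z₀‖ := by
      simpa using norm_add_le (D z - D z₀) (D z₀)
    have h4 : (L * M + δ) * ρ = (L * ρ) * M + δ * ρ := by ring
    have h5 : (L * ρ) * M ≤ 1 / 2 * M := mul_le_mul_of_nonneg_right hLρ hM0
    linarith
  have iter : ∀ n : ℕ, ∀ z ∈ Q, ‖D z‖ ≤ M / 2 ^ n + 2 * A := by
    intro n
    induction n with
    | zero =>
      intro z hz
      simpa using (hM z hz).trans (by linarith)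
    | succ n ih =>
      intro z hz
      have := step _ ih z hz
      rw [pow_succ]
      have h : (M / 2 ^ n + 2 * A) / 2 + A = M / (2 ^ n * 2) + 2 * A := by
        field_simp
        ring
      linarith
  intro z hz
  have hlim : Tendsto (fun n : ℕ => M / 2 ^ n + 2 * A) atTop (𝓝 (0 + 2 * A)) := by
    refine Tendsto.add_const _ ?_
    have h1 : Tendsto (fun n : ℕ => M * (1 / 2 : ℝ) ^ n) atTop (𝓝 (M * 0)) :=
      (tendsto_pow_atTop_nhds_zero_of_lt_one (by norm_num) (by norm_num)).const_mul M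
    rw [mul_zero] at h1
    refine h1.congr fun n => ?_
    rw [one_div, inv_pow, div_eq_mul_inv]
  rw [zero_add] at hlim
  exact ge_of_tendsto' hlim fun n => iter n z hz

variable [CompleteSpace V]

/-- primitives on convex open sets -/
theorem exists_primitive {Q : Set ℂ} (hQo : IsOpen Q) (hQ : Convex ℝ Q) {f : ℂ → V}
    (hf : DifferentiableOn ℂ f Q) (z₀ : ℂ) (x₀ : V) :
    ∃ F : ℂ → V, F z₀ = x₀ ∧ ∀ z ∈ Q, HasDerivAt F (f z) z := by
  set w : ℂ → ℂ →L[ℂ] V := fun z => (ContinuousLinearMap.id ℂ ℂ).smulRight (f z) with hw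
  have hwf : ∀ a ∈ Q, HasFDerivAt (𝕜 := ℝ) w
      (((ContinuousLinearMap.smulRightL ℂ ℂ V (ContinuousLinearMap.id ℂ ℂ)).comp
        ((ContinuousLinearMap.id ℂ ℂ).smulRight (deriv f a))).restrictScalars ℝ) a := by
    intro a ha
    have h1 : HasDerivAt f (deriv f a) a := (hf.differentiableAt (hQo.mem_nhds ha)).hasDerivAt
    have h2 : HasFDerivAt f ((ContinuousLinearMap.id ℂ ℂ).smulRight (deriv f a)) a := by
      exact h1.hasFDerivAt.congr_fderiv (by ext; simp)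
    have h3 := (ContinuousLinearMap.smulRightL ℂ ℂ V (ContinuousLinearMap.id ℂ ℂ)).hasFDerivAt.comp a h2
    exact h3.restrictScalars ℝ
  obtain ⟨F, hF⟩ := hQ.exists_forall_hasFDerivAt_of_fderiv_symmetric (𝕜 := ℂ) (ω := w) hQo
    (fun a ha => (hwf a ha).differentiableAt.differentiableWithinAt) (by
      intro a ha x y
      rw [(hwf a ha).fderiv]
      simp [smul_smul, mul_comm])
  refine ⟨fun z => F z - F z₀ + x₀, by simp, fun z hz => ?_⟩
  have h1 := (hF z hz).hasDerivAt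
  simp only [hw, ContinuousLinearMap.smulRight_apply, ContinuousLinearMap.id_apply, one_smul] at h1
  exact (h1.sub_const _).add_const _

/-- **Picard's theorem** on a convex open set of complex times. -/
theorem picard {Q : Set ℂ} (hQo : IsOpen Q) (hQ : Convex ℝ Q) {z₀ : ℂ} (hz₀ : z₀ ∈ Q) {ρ : ℝ}
    (hρ : ∀ z ∈ Q, ‖z - z₀‖ ≤ ρ) {x₀ : V} {r M L : ℝ} (hL : 0 ≤ L) (hLρ : L * ρ ≤ 1 / 2)
    (hM : 0 ≤ M) (hMρ : M * ρ ≤ r) (Φ : ℂ → V → V)
    (hol : ∀ T : ℂ → V, DifferentiableOn ℂ T Q → MapsTo T Q (closedBall x₀ r) →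
      DifferentiableOn ℂ (fun z => Φ z (T z)) Q)
    (bd : ∀ z ∈ Q, ∀ x ∈ closedBall x₀ r, ‖Φ z x‖ ≤ M)
    (lip : ∀ z ∈ Q, ∀ x ∈ closedBall x₀ r, ∀ y ∈ closedBall x₀ r, ‖Φ z x - Φ z y‖ ≤ L * ‖x - y‖) :
    ∃ T : ℂ → V, T z₀ = x₀ ∧ MapsTo T Q (closedBall x₀ r) ∧
      ∀ z ∈ Q, HasDerivAt T (Φ z (T z)) z := by
  have hρ0 : 0 ≤ ρ := (norm_nonneg _).trans (hρ z₀ hz₀)
  have hr : 0 ≤ r := (by positivity : 0 ≤ M * ρ).trans hMρ
  let good : (ℂ → V) → Prop := fun T => DifferentiableOn ℂ T Q ∧ MapsTo T Q (closedBall x₀ r) ∧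
    T z₀ = x₀
  have hstep : ∀ T : {T // good T}, ∃ T' : {T // good T}, ∀ z ∈ Q, HasDerivAt T'.1 (Φ z (T.1 z)) z := by
    rintro ⟨T, hT1, hT2, hT3⟩
    obtain ⟨F, hF0, hF⟩ := exists_primitive hQo hQ (hol T hT1 hT2) z₀ x₀
    refine ⟨⟨F, fun z hz => (hF z hz).differentiableAt.differentiableWithinAt, fun z hz => ?_, hF0⟩, hF⟩
    rw [mem_closedBall, dist_eq_norm]
    have h1 : ‖F z - F z₀‖ ≤ M * ‖z - z₀‖ :=
      hQ.norm_image_sub_le_of_norm_hasDerivWithin_le (fun x hx => (hF x hx).hasDerivWithinAt)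
        (fun x hx => bd x hx _ (hT2 hx)) hz₀ hz
    rw [hF0] at h1
    exact h1.trans ((mul_le_mul_of_nonneg_left (hρ z hz) hM).trans hMρ)
  choose S hS using hstep
  let T0 : {T // good T} := ⟨fun _ => x₀, differentiableOn_const _,
    fun z _ => mem_closedBall_self hr, rfl⟩
  let T : ℕ → {T // good T} := fun n => S^[n] T0
  have hT : ∀ n, ∀ z ∈ Q, HasDerivAt (T (n + 1)).1 (Φ z ((T n).1 z)) z := by
    intro n z hz
    have : T (n + 1) = S (T n) := by
      simp only [T, Function.iterate_succ', Function.comp_apply]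
    rw [this]
    exact hS _ z hz
  have hdiff : ∀ n, ∀ z ∈ Q, ‖(T (n + 1)).1 z - (T n).1 z‖ ≤ r / 2 ^ n := by
    intro n
    induction n with
    | zero =>
      intro z hz
      have h1 := (T 1).2.2.1 hz
      rw [mem_closedBall, dist_eq_norm] at h1
      simpa [T, T0] using h1
    | succ n ih =>
      intro z hz
      have hb : ∀ x ∈ Q, ‖Φ x ((T (n + 1)).1 x) - Φ x ((T n).1 x)‖ ≤ L * (r / 2 ^ n) := fun x hx =>
        (lip x hx _ ((T (n + 1)).2.2.1 hx) _ ((T n).2.2.1 hx)).trans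
          (mul_le_mul_of_nonneg_left (ih x hx) hL)
      have h1 := hQ.norm_image_sub_le_of_norm_hasDerivWithin_le
        (f := fun z => (T (n + 1 + 1)).1 z - (T (n + 1)).1 z)
        (fun x hx => ((hT (n + 1) x hx).sub (hT n x hx)).hasDerivWithinAt) hb hz₀ hz
      simp only [(T (n + 1 + 1)).2.2.2, (T (n + 1)).2.2.2, sub_self, sub_zero] at h1
      refine h1.trans ?_
      have h2 : L * (r / 2 ^ n) * ‖z - z₀‖ ≤ L * (r / 2 ^ n) * ρ :=
        mul_le_mul_of_nonneg_left (hρ z hz) (by positivity)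
      have h3 : L * (r / 2 ^ n) * ρ = (L * ρ) * (r / 2 ^ n) := by ring
      have h4 : (L * ρ) * (r / 2 ^ n) ≤ 1 / 2 * (r / 2 ^ n) :=
        mul_le_mul_of_nonneg_right hLρ (by positivity)
      have h5 : 1 / 2 * (r / 2 ^ n) = r / 2 ^ (n + 1) := by
        rw [pow_succ]; field_simp
      linarith
  have hcau : ∀ z ∈ Q, ∀ n, dist ((T n).1 z) ((T (n + 1)).1 z) ≤ 2 * r / 2 / 2 ^ n := by
    intro z hz n
    rw [dist_comm, dist_eq_norm]
    exact (hdiff n z hz).trans (le_of_eq (by ring))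
  have hlim : ∀ z, ∃ x, z ∈ Q → Tendsto (fun n => (T n).1 z) atTop (𝓝 x) := by
    intro z
    by_cases hz : z ∈ Q
    · obtain ⟨x, hx⟩ := cauchySeq_tendsto_of_complete (cauchySeq_of_le_geometric_two (hcau z hz))
      exact ⟨x, fun _ => hx⟩
    · exact ⟨0, fun h => absurd h hz⟩
  choose G hG using hlim
  have hdist : ∀ z ∈ Q, ∀ n, dist ((T n).1 z) (G z) ≤ 2 * r / 2 ^ n := fun z hz n =>
    dist_le_of_le_geometric_two_of_tendsto (hcau z hz) (hG z hz) n
  have hpow : Tendsto (fun n : ℕ => 2 * r / 2 ^ n) atTop (𝓝 0) := by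
    have h1 : Tendsto (fun n : ℕ => (2 * r) * (1 / 2 : ℝ) ^ n) atTop (𝓝 ((2 * r) * 0)) :=
      (tendsto_pow_atTop_nhds_zero_of_lt_one (by norm_num) (by norm_num)).const_mul (2 * r)
    rw [mul_zero] at h1
    refine h1.congr fun n => ?_
    rw [one_div, inv_pow, div_eq_mul_inv]
  have hunif : TendstoUniformlyOn (fun n => (T (n + 1)).1) G atTop Q := by
    rw [Metric.tendstoUniformlyOn_iff]
    intro ε hε
    have h1 : ∀ᶠ n : ℕ in atTop, 2 * r / 2 ^ (n + 1) < ε :=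
      ((tendsto_add_atTop_iff_nat 1).2 hpow).eventually (gt_mem_nhds hε)
    filter_upwards [h1] with n hn z hz
    rw [dist_comm]
    exact (hdist z hz (n + 1)).trans_lt hn
  have hloc := hunif.tendstoLocallyUniformlyOn
  have hTd : ∀ᶠ n in atTop, DifferentiableOn ℂ ((T (n + 1)).1) Q :=
    Eventually.of_forall fun n => (T (n + 1)).2.1
  have hGd : DifferentiableOn ℂ G Q := hloc.differentiableOn hTd hQo
  have hGmem : MapsTo G Q (closedBall x₀ r) := fun z hz =>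
    isClosed_closedBall.mem_of_tendsto (hG z hz) (Eventually.of_forall fun n => (T n).2.2.1 hz)
  refine ⟨G, ?_, hGmem, fun z hz => ?_⟩
  · refine tendsto_nhds_unique (hG z₀ hz₀) ?_
    refine tendsto_const_nhds.congr fun n => ?_
    exact ((T n).2.2.2).symm
  · have h1 := (hloc.deriv hTd hQo).tendsto_at hz
    have h2 : Tendsto (fun n => Φ z ((T n).1 z)) atTop (𝓝 (Φ z (G z))) := by
      rw [tendsto_iff_norm_sub_tendsto_zero]
      have h3 : Tendsto (fun n : ℕ => L * ‖(T n).1 z - G z‖) atTop (𝓝 (L * 0)) :=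
        ((tendsto_iff_norm_sub_tendsto_zero.1 (hG z hz)).const_mul L)
      rw [mul_zero] at h3
      exact squeeze_zero (fun _ => norm_nonneg _)
        (fun n => lip z hz _ ((T n).2.2.1 hz) _ (hGmem hz)) h3
    have h3 : deriv G z = Φ z (G z) := by
      refine tendsto_nhds_unique h1 (h2.congr fun n => ?_)
      exact ((hT n z hz).deriv).symm
    rw [← h3]
    exact (hGd.differentiableAt (hQo.mem_nhds hz)).hasDerivAt

end Vale.Agent.P267.H714
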